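import Vale.Agent.P114.Upper

namespace Vale.Agent.Results.P114.A_full

open MeasureTheory Vale.Agent.P114

theorem result {Λ : Type*} [Fintype Λ] [Nonempty Λ] (r t p : Λ → ℝ)
    (hr0 : ∀ i, 0 < |r i|) (hr1 : ∀ i, |r i| < 1) (hp : ∀ i, 0 < p i) (hsum : ∑ i, p i = 1)
    (μ : Measure ℝ) [IsProbabilityMeasure μ]
    (hμ : μ = ∑ i, ENNReal.ofReal (p i) • μ.map (fun x => r i * x + t i)) :
    lowerDim μ = ENNReal.ofReal (min 1 (hRW r t p / lyap r p)) :=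
  Sys.main ⟨r, t, p, fun i => abs_pos.1 (hr0 i), hr1, hp, hsum⟩ hμ

end Vale.Agent.Results.P114.A_full
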